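import Mathlib

/-! The random triangle removal process. -/

namespace Vale.Agent.P046

open Classical in
/-- The triangles of a graph, as three-element vertex sets. -/
noncomputable def triangles {V : Type*} [Fintype V] (G : SimpleGraph V) : Finset (Finset V) :=
  Finset.univ.filter fun T => G.IsNClique 3 T

/-- Delete all edges joining two vertices of `T`. -/
def removeTri {V : Type*} (G : SimpleGraph V) (T : Finset V) : SimpleGraph V :=
  G.deleteEdges {e | ∀ v ∈ e, v ∈ T}

/-- Law of the number of edges left when the process starts at `G` and makes at most `k` steps. -/
noncomputable def runLaw {V : Type*} [Fintype V] : ℕ → SimpleGraph V → PMF ℕ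
  | 0, G => PMF.pure G.edgeSet.ncard
  | k + 1, G =>
    if h : (triangles G).Nonempty then
      (PMF.uniformOfFinset (triangles G) h).bind fun T => runLaw k (removeTri G T)
    else PMF.pure G.edgeSet.ncard

/-- Law of the number of edges of the final graph, starting from the complete graph. -/
noncomputable def leaveLaw (n : ℕ) : PMF ℕ := runLaw (n ^ 2) (⊤ : SimpleGraph (Fin n))

end Vale.Agent.P046
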