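import Mathlib

/-! Elementary inequalities: Taylor bound for powers, interpolation, a trace bound. -/

open Finset

namespace Vale.Agent.P046

lemma taylor_abs (a X : ℝ) (m : ℕ) :
    |(a + X) ^ (m + 2) - a ^ (m + 2) - (m + 2) * a ^ (m + 1) * X| ≤
      ((m : ℝ) + 2) ^ 2 * X ^ 2 * (|a| + |X|) ^ m := by
  induction m with
  | zero =>
    have : (a + X) ^ (0 + 2) - a ^ (0 + 2) - ((0 : ℕ) + 2 : ℝ) * a ^ (0 + 1) * X = X ^ 2 := by
      push_cast; ring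
    rw [this, abs_of_nonneg (sq_nonneg X)]
    push_cast
    nlinarith [sq_nonneg X]
  | succ m ih =>
    have e : (a + X) ^ (m + 1 + 2) - a ^ (m + 1 + 2) - ((m + 1 : ℕ) + 2 : ℝ) * a ^ (m + 1 + 1) * X =
        (a + X) * ((a + X) ^ (m + 2) - a ^ (m + 2) - (m + 2) * a ^ (m + 1) * X) +
          (m + 2) * a ^ (m + 1) * X ^ 2 := by
      push_cast; ring
    rw [e]
    have hB : 0 ≤ |a| + |X| := by positivity
    have h1 : |a + X| ≤ |a| + |X| := abs_add_le _ _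
    have h2 : |a| ^ (m + 1) ≤ (|a| + |X|) ^ (m + 1) :=
      pow_le_pow_left₀ (abs_nonneg _) (by linarith [abs_nonneg X]) _
    have h3 : |((m : ℝ) + 2) * a ^ (m + 1) * X ^ 2| ≤ (m + 2) * X ^ 2 * (|a| + |X|) ^ (m + 1) := by
      rw [abs_mul, abs_mul, abs_pow, abs_of_nonneg (sq_nonneg X),
        abs_of_nonneg (by positivity : (0 : ℝ) ≤ m + 2)]
      have := mul_le_mul_of_nonneg_left h2 (by positivity : (0 : ℝ) ≤ (m + 2) * X ^ 2)
      linarith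
    have h4 : |(a + X) * ((a + X) ^ (m + 2) - a ^ (m + 2) - (m + 2) * a ^ (m + 1) * X)| ≤
        ((m : ℝ) + 2) ^ 2 * X ^ 2 * (|a| + |X|) ^ (m + 1) := by
      rw [abs_mul]
      calc _ ≤ (|a| + |X|) * (((m : ℝ) + 2) ^ 2 * X ^ 2 * (|a| + |X|) ^ m) :=
            mul_le_mul h1 ih (abs_nonneg _) hB
        _ = _ := by ring
    refine (abs_add_le _ _).trans ?_
    have h5 : 0 ≤ X ^ 2 * (|a| + |X|) ^ (m + 1) := by positivity
    push_cast
    have hm : (0 : ℝ) ≤ m := Nat.cast_nonneg m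
    nlinarith

lemma add_pow_le_two (a b : ℝ) (ha : 0 ≤ a) (hb : 0 ≤ b) (m : ℕ) :
    (a + b) ^ m ≤ 2 ^ m * (a ^ m + b ^ m) := by
  rcases le_total a b with h | h
  · calc (a + b) ^ m ≤ (2 * b) ^ m := pow_le_pow_left₀ (by positivity) (by linarith) _
      _ = 2 ^ m * b ^ m := mul_pow _ _ _
      _ ≤ _ := by gcongr; linarith [pow_nonneg ha m]
  · calc (a + b) ^ m ≤ (2 * a) ^ m := pow_le_pow_left₀ (by positivity) (by linarith) _
      _ = 2 ^ m * a ^ m := mul_pow _ _ _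
      _ ≤ _ := by gcongr; linarith [pow_nonneg hb m]

/-- Constant in the Taylor bound. -/
noncomputable def kT (m : ℕ) : ℝ := ((m : ℝ) + 2) ^ 2 * 2 ^ m

lemma one_le_kT (m : ℕ) : 1 ≤ kT m := by
  unfold kT
  have h1 : (1 : ℝ) ≤ ((m : ℝ) + 2) ^ 2 := one_le_pow₀ (by linarith [Nat.cast_nonneg (α := ℝ) m])
  have h2 : (1 : ℝ) ≤ 2 ^ m := one_le_pow₀ (by norm_num)
  nlinarith

lemma taylor_le (a X σ : ℝ) (m : ℕ) (hX : |X| ≤ σ) :
    (a + X) ^ (m + 2) ≤ a ^ (m + 2) + (m + 2) * a ^ (m + 1) * X +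
      X ^ 2 * (kT m * (|a| ^ m + σ ^ m)) := by
  have h := (abs_le.1 (taylor_abs a X m)).2
  have hσ : 0 ≤ σ := (abs_nonneg _).trans hX
  have h1 : (|a| + |X|) ^ m ≤ 2 ^ m * (|a| ^ m + σ ^ m) :=
    (pow_le_pow_left₀ (by positivity) (by linarith) _).trans (add_pow_le_two _ _ (abs_nonneg _) hσ m)
  have h2 := mul_le_mul_of_nonneg_left h1 (by positivity : 0 ≤ ((m : ℝ) + 2) ^ 2 * X ^ 2)
  unfold kT
  nlinarith

lemma absorb (a σ : ℝ) (hσ : 0 ≤ σ) (m : ℕ) :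
    σ ^ 2 * (kT m * (|a| ^ m + σ ^ m)) ≤ |a| ^ (m + 2) + (kT m ^ (m + 1) + kT m) * σ ^ (m + 2) := by
  have hK := one_le_kT m
  have h : σ ^ 2 * (kT m * |a| ^ m) ≤ |a| ^ (m + 2) + kT m ^ (m + 1) * σ ^ (m + 2) := by
    rcases le_total (kT m * σ) |a| with h | h
    · have h1 : (kT m * σ) ^ 2 ≤ |a| ^ 2 := pow_le_pow_left₀ (by positivity) h 2
      have h2 : kT m * σ ^ 2 ≤ |a| ^ 2 := by nlinarith [sq_nonneg σ, mul_nonneg (by linarith : 0 ≤ kT m) (sq_nonneg σ)]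
      have h3 := mul_le_mul_of_nonneg_right h2 (pow_nonneg (abs_nonneg a) m)
      have h4 : 0 ≤ kT m ^ (m + 1) * σ ^ (m + 2) := by positivity
      calc _ = kT m * σ ^ 2 * |a| ^ m := by ring
        _ ≤ |a| ^ 2 * |a| ^ m := h3
        _ = |a| ^ (m + 2) := by ring
        _ ≤ _ := by linarith
    · have h1 : |a| ^ m ≤ (kT m * σ) ^ m := pow_le_pow_left₀ (abs_nonneg _) h m
      have h2 := mul_le_mul_of_nonneg_left h1 (by positivity : 0 ≤ σ ^ 2 * kT m)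
      have h4 : 0 ≤ |a| ^ (m + 2) := by positivity
      calc _ = σ ^ 2 * kT m * |a| ^ m := by ring
        _ ≤ σ ^ 2 * kT m * (kT m * σ) ^ m := h2
        _ = kT m ^ (m + 1) * σ ^ (m + 2) := by ring
        _ ≤ _ := by linarith
  calc _ = σ ^ 2 * (kT m * |a| ^ m) + kT m * σ ^ (m + 2) := by ring
    _ ≤ _ := by linarith

lemma young (a b s : ℝ) (ha : 0 ≤ a) (hb : 0 ≤ b) (hs : 0 < s) (m : ℕ) :
    a ^ (m + 1) * b ≤ s * a ^ (m + 2) + (1 / s) ^ (m + 1) * b ^ (m + 2) := by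
  rcases le_total b (s * a) with h | h
  · have h1 := mul_le_mul_of_nonneg_left h (pow_nonneg ha (m + 1))
    have h2 : 0 ≤ (1 / s) ^ (m + 1) * b ^ (m + 2) := by positivity
    calc _ ≤ a ^ (m + 1) * (s * a) := h1
      _ = s * a ^ (m + 2) := by ring
      _ ≤ _ := by linarith
  · have h0 : a ≤ 1 / s * b := by
      rw [one_div, ← div_eq_inv_mul, le_div_iff₀ hs]; linarith
    have h1 := mul_le_mul_of_nonneg_right (pow_le_pow_left₀ ha h0 (m + 1)) hb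
    have h2 : 0 ≤ s * a ^ (m + 2) := by positivity
    calc _ ≤ (1 / s * b) ^ (m + 1) * b := h1
      _ = (1 / s) ^ (m + 1) * b ^ (m + 2) := by ring
      _ ≤ _ := by linarith

lemma young_sym (a b : ℝ) (ha : 0 ≤ a) (hb : 0 ≤ b) (m : ℕ) :
    a ^ (m + 1) * b + b ^ (m + 1) * a ≤ a ^ (m + 2) + b ^ (m + 2) := by
  have h : 0 ≤ (a ^ (m + 1) - b ^ (m + 1)) * (a - b) := by
    rcases le_total a b with h | h
    · exact mul_nonneg_of_nonpos_of_nonpos (sub_nonpos.2 (pow_le_pow_left₀ ha h _)) (sub_nonpos.2 h)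
    · exact mul_nonneg (sub_nonneg.2 (pow_le_pow_left₀ hb h _)) (sub_nonneg.2 h)
  have e : (a ^ (m + 1) - b ^ (m + 1)) * (a - b) =
      a ^ (m + 2) + b ^ (m + 2) - (a ^ (m + 1) * b + b ^ (m + 1) * a) := by ring
  linarith

lemma four_pow_le (a b c d : ℝ) (p : ℕ) :
    |a + b + c + d| ^ p ≤ 4 ^ p * (|a| ^ p + |b| ^ p + |c| ^ p + |d| ^ p) := by
  have h1 : |a + b + c + d| ≤ (|a| + |b|) + (|c| + |d|) := by
    have := abs_add_le (a + b) (c + d)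
    have := abs_add_le a b
    have := abs_add_le c d
    rw [show a + b + c + d = (a + b) + (c + d) by ring]
    linarith
  calc _ ≤ ((|a| + |b|) + (|c| + |d|)) ^ p := pow_le_pow_left₀ (abs_nonneg _) h1 p
    _ ≤ 2 ^ p * ((|a| + |b|) ^ p + (|c| + |d|) ^ p) := add_pow_le_two _ _ (by positivity) (by positivity) p
    _ ≤ 2 ^ p * (2 ^ p * (|a| ^ p + |b| ^ p) + 2 ^ p * (|c| ^ p + |d| ^ p)) := by
        gcongr
        · exact add_pow_le_two _ _ (abs_nonneg _) (abs_nonneg _) p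
        · exact add_pow_le_two _ _ (abs_nonneg _) (abs_nonneg _) p
    _ = _ := by rw [show (4 : ℝ) = 2 * 2 by norm_num, mul_pow]; ring

lemma geo_ite (l b : ℝ) (hl : 0 < l) (hb : 0 ≤ b) (m I : ℕ) :
    ∑ i ∈ range I, (if l * 2 ^ i < b then (l * 2 ^ i) ^ (m + 1) else 0) ≤ 2 * b ^ (m + 1) := by
  have h : ∀ I : ℕ, ∑ i ∈ range I, (if l * 2 ^ i < b then (l * 2 ^ i) ^ (m + 1) else 0) ≤
      (l * 2 ^ I) ^ (m + 1) := by
    intro I
    induction I with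
    | zero => simp; positivity
    | succ I ih =>
      rw [sum_range_succ]
      have h1 : (if l * 2 ^ I < b then (l * 2 ^ I) ^ (m + 1) else 0) ≤ (l * 2 ^ I) ^ (m + 1) := by
        split_ifs
        · exact le_rfl
        · positivity
      have h2 : (2 : ℝ) ≤ 2 ^ (m + 1) := le_self_pow₀ (by norm_num) (by omega)
      have h3 : (l * 2 ^ (I + 1)) ^ (m + 1) = (l * 2 ^ I) ^ (m + 1) * 2 ^ (m + 1) := by
        rw [← mul_pow]; ring
      have h4 : 0 ≤ (l * 2 ^ I) ^ (m + 1) := by positivity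
      rw [h3]; nlinarith
  induction I with
  | zero => simp; positivity
  | succ I ih =>
    rw [sum_range_succ]
    split_ifs with hc
    · have := h I
      have h2 : (l * 2 ^ I) ^ (m + 1) ≤ b ^ (m + 1) := pow_le_pow_left₀ (by positivity) hc.le _
      linarith
    · linarith

lemma dyadic_pt (t l : ℝ) (ht : 0 ≤ t) (hl : 0 < l) (m I : ℕ) (hI : t < 8 * l * 2 ^ I) :
    t ^ (m + 2) ≤ (8 * l) ^ (m + 2) +
      4 * 16 ^ m * ∑ i ∈ range I, (l * 2 ^ i) ^ m * (max (t - 4 * (l * 2 ^ i)) 0) ^ 2 := by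
  have hS : 0 ≤ ∑ i ∈ range I, (l * 2 ^ i) ^ m * (max (t - 4 * (l * 2 ^ i)) 0) ^ 2 :=
    sum_nonneg fun i _ => by positivity
  by_cases h8 : t < 8 * l
  · have : t ^ (m + 2) ≤ (8 * l) ^ (m + 2) := pow_le_pow_left₀ ht h8.le _
    have : 0 ≤ (4 : ℝ) * 16 ^ m * ∑ i ∈ range I, (l * 2 ^ i) ^ m * (max (t - 4 * (l * 2 ^ i)) 0) ^ 2 := by
      positivity
    linarith
  · have hex : ∃ j : ℕ, t < 8 * l * 2 ^ j := ⟨I, hI⟩
    classical
    have hj := Nat.find_spec hex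
    have hjI : Nat.find hex ≤ I := Nat.find_min' hex hI
    obtain ⟨i, hi⟩ : ∃ i, Nat.find hex = i + 1 := by
      refine Nat.exists_eq_succ_of_ne_zero fun h0 => h8 ?_
      rw [h0] at hj; simpa using hj
    have hlo : ¬ t < 8 * l * 2 ^ i := Nat.find_min hex (by omega)
    rw [hi] at hj
    push Not at hlo
    have hx : 0 < l * 2 ^ i := by positivity
    have h1 : t / 2 ≤ max (t - 4 * (l * 2 ^ i)) 0 := le_max_of_le_left (by linarith)
    have h2 : t ≤ 16 * (l * 2 ^ i) := by rw [pow_succ] at hj; linarith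
    have h3 : t ^ m ≤ (16 * (l * 2 ^ i)) ^ m := pow_le_pow_left₀ ht h2 m
    have h4 : (t / 2) ^ 2 ≤ (max (t - 4 * (l * 2 ^ i)) 0) ^ 2 := pow_le_pow_left₀ (by linarith) h1 2
    have h5 : (l * 2 ^ i) ^ m * (max (t - 4 * (l * 2 ^ i)) 0) ^ 2 ≤
        ∑ i ∈ range I, (l * 2 ^ i) ^ m * (max (t - 4 * (l * 2 ^ i)) 0) ^ 2 :=
      single_le_sum (f := fun i => (l * 2 ^ i) ^ m * (max (t - 4 * (l * 2 ^ i)) 0) ^ 2)
        (fun i _ => by positivity) (mem_range.2 (by omega))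
    have h6 : t ^ (m + 2) ≤ 4 * 16 ^ m * ((l * 2 ^ i) ^ m * (max (t - 4 * (l * 2 ^ i)) 0) ^ 2) := by
      calc t ^ (m + 2) = 4 * (t ^ m * (t / 2) ^ 2) := by ring
        _ ≤ 4 * ((16 * (l * 2 ^ i)) ^ m * (max (t - 4 * (l * 2 ^ i)) 0) ^ 2) := by gcongr
        _ = _ := by rw [mul_pow]; ring
    have h7 : 0 ≤ (8 * l) ^ (m + 2) := by positivity
    have h8 := mul_le_mul_of_nonneg_left h5 (by positivity : (0 : ℝ) ≤ 4 * 16 ^ m)
    linarith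

/-- Interpolation between a bound in sup norm and a bound in Euclidean norm. -/
lemma interp {V : Type*} [Fintype V] (w : V → ℝ) (hw : ∀ y, w y = 0 ∨ w y = 1)
    (R : (V → ℝ) → V → ℝ) (hadd : ∀ f g y, R (fun z => f z + g z) y = R f y + R g y) (e : ℝ)
    (he : 0 ≤ e)
    (hinf : ∀ ψ l, (∀ z, w z = 1 → |ψ z| ≤ l) → ∀ y, w y = 1 → |R ψ y| ≤ 4 * l)
    (h2 : ∀ ψ, ∑ y, w y * R ψ y ^ 2 ≤ e * ∑ z, w z * ψ z ^ 2) (m : ℕ) (ψ : V → ℝ) :
    ∑ y, w y * |R ψ y| ^ (m + 3) ≤ 8 * 16 ^ (m + 1) * e * ∑ z, w z * |ψ z| ^ (m + 3) := by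
  have hw0 : ∀ y, 0 ≤ w y := fun y => by rcases hw y with h | h <;> rw [h] <;> norm_num
  have hw1 : ∀ y, w y ≤ 1 := fun y => by rcases hw y with h | h <;> rw [h] <;> norm_num
  have key : ∀ l : ℝ, 0 < l → ∑ y, w y * |R ψ y| ^ (m + 3) ≤
      8 * 16 ^ (m + 1) * e * ∑ z, w z * |ψ z| ^ (m + 3) + Fintype.card V * (8 * l) ^ (m + 3) := by
    intro l hl
    obtain ⟨I, hI⟩ : ∃ I : ℕ, (∑ y, |R ψ y|) / (8 * l) < 2 ^ I := pow_unbounded_of_one_lt _ (by norm_num)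
    have hI' : ∀ y, |R ψ y| < 8 * l * 2 ^ I := fun y => by
      have h1 : |R ψ y| ≤ ∑ y, |R ψ y| :=
        single_le_sum (f := fun y => |R ψ y|) (fun _ _ => abs_nonneg _) (mem_univ y)
      rw [div_lt_iff₀ (by positivity)] at hI
      linarith
    have hlev : ∀ L : ℝ, 0 < L → ∑ y, w y * (max (|R ψ y| - 4 * L) 0) ^ 2 ≤
        e * ∑ z, w z * (if L < |ψ z| then ψ z else 0) ^ 2 := by
      intro L hL
      refine le_trans (sum_le_sum fun y _ => ?_) (h2 fun z => if L < |ψ z| then ψ z else 0)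
      rcases hw y with h | h
      · rw [h]; simp
      · have e1 : ψ = fun z => (if L < |ψ z| then 0 else ψ z) + (if L < |ψ z| then ψ z else 0) := by
          funext z; split_ifs <;> simp
        have e2 := hadd (fun z => if L < |ψ z| then 0 else ψ z) (fun z => if L < |ψ z| then ψ z else 0) y
        rw [← e1] at e2
        have e3 := hinf (fun z => if L < |ψ z| then 0 else ψ z) L (fun z _ => by
          split_ifs with hz
          · simpa using hL.le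
          · exact not_lt.1 hz) y h
        have e4 : max (|R ψ y| - 4 * L) 0 ≤ |R (fun z => if L < |ψ z| then ψ z else 0) y| := by
          refine max_le ?_ (abs_nonneg _)
          rw [e2]
          have := abs_add_le (R (fun z => if L < |ψ z| then 0 else ψ z) y)
            (R (fun z => if L < |ψ z| then ψ z else 0) y)
          linarith
        refine mul_le_mul_of_nonneg_left ?_ (hw0 y)
        rw [← sq_abs (R _ y)]
        exact pow_le_pow_left₀ (le_max_right _ _) e4 2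
    calc ∑ y, w y * |R ψ y| ^ (m + 3)
        ≤ ∑ y, ((8 * l) ^ (m + 3) + 4 * 16 ^ (m + 1) * ∑ i ∈ range I,
            (l * 2 ^ i) ^ (m + 1) * (w y * (max (|R ψ y| - 4 * (l * 2 ^ i)) 0) ^ 2)) := by
          refine sum_le_sum fun y _ => ?_
          rcases hw y with h | h
          · rw [h]; simp; positivity
          · rw [h]; simpa using dyadic_pt _ l (abs_nonneg (R ψ y)) hl (m + 1) I (hI' y)
      _ = Fintype.card V * (8 * l) ^ (m + 3) + 4 * 16 ^ (m + 1) * ∑ i ∈ range I,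
            (l * 2 ^ i) ^ (m + 1) * ∑ y, w y * (max (|R ψ y| - 4 * (l * 2 ^ i)) 0) ^ 2 := by
          rw [sum_add_distrib, sum_const, card_univ, nsmul_eq_mul, ← mul_sum, sum_comm]
          simp only [mul_sum]
      _ ≤ Fintype.card V * (8 * l) ^ (m + 3) + 4 * 16 ^ (m + 1) * ∑ i ∈ range I,
            (l * 2 ^ i) ^ (m + 1) * (e * ∑ z, w z * (if l * 2 ^ i < |ψ z| then ψ z else 0) ^ 2) := by
          gcongr with i _
          exact hlev _ (by positivity)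
      _ = Fintype.card V * (8 * l) ^ (m + 3) + 4 * 16 ^ (m + 1) * (e * ∑ z, w z * ψ z ^ 2 *
            ∑ i ∈ range I, (if l * 2 ^ i < |ψ z| then (l * 2 ^ i) ^ (m + 1) else 0)) := by
          congr 2
          simp only [mul_sum]
          rw [sum_comm]
          refine sum_congr rfl fun z _ => sum_congr rfl fun i _ => ?_
          split_ifs <;> ring
      _ ≤ Fintype.card V * (8 * l) ^ (m + 3) + 4 * 16 ^ (m + 1) * (e * ∑ z, w z * ψ z ^ 2 *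
            (2 * |ψ z| ^ (m + 1))) := by
          gcongr with z _
          · exact mul_nonneg (hw0 z) (sq_nonneg _)
          · exact geo_ite l _ hl (abs_nonneg _) m I
      _ = _ := by
          have : ∀ z, w z * ψ z ^ 2 * (2 * |ψ z| ^ (m + 1)) = 2 * (w z * |ψ z| ^ (m + 3)) := fun z => by
            rw [← sq_abs]; ring
          simp only [this, ← mul_sum]
          ring
  refine le_of_forall_pos_le_add fun ε hε => ?_
  have hN : (0 : ℝ) ≤ Fintype.card V := Nat.cast_nonneg _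
  have hl : 0 < min (1 / 8) (ε / (8 * (Fintype.card V + 1))) := lt_min (by norm_num) (by positivity)
  refine (key _ hl).trans ?_
  have h1 : 8 * min (1 / 8) (ε / (8 * (Fintype.card V + 1))) ≤ 1 := by
    have := min_le_left (1 / 8 : ℝ) (ε / (8 * (Fintype.card V + 1))); linarith
  have h2 : 8 * min (1 / 8) (ε / (8 * (Fintype.card V + 1))) ≤ ε / (Fintype.card V + 1) := by
    have := min_le_right (1 / 8 : ℝ) (ε / (8 * (Fintype.card V + 1)))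
    have e : ε / (Fintype.card V + 1) = 8 * (ε / (8 * (Fintype.card V + 1))) := by field_simp
    linarith
  have h3 : (8 * min (1 / 8) (ε / (8 * (Fintype.card V + 1)))) ^ (m + 3) ≤ ε / (Fintype.card V + 1) :=
    (pow_le_of_le_one (by linarith) h1 (by omega)).trans h2
  have h4 : (Fintype.card V : ℝ) * (ε / (Fintype.card V + 1)) ≤ ε := by
    rw [mul_div_assoc', div_le_iff₀ (by positivity)]; nlinarith
  have := mul_le_mul_of_nonneg_left h3 hN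
  linarith

section Spec

open Matrix

variable {V : Type*} [Fintype V] [DecidableEq V]

omit [DecidableEq V] in
lemma dot_nonneg (w : V → ℝ) : 0 ≤ w ⬝ᵥ w := sum_nonneg fun _ _ => mul_self_nonneg _

omit [DecidableEq V] in
lemma dot_sq_le (u v : V → ℝ) : (u ⬝ᵥ v) ^ 2 ≤ (u ⬝ᵥ u) * (v ⬝ᵥ v) := by
  have := sum_mul_sq_le_sq_mul_sq univ u v
  simpa [dotProduct, sq] using this

omit [DecidableEq V] in
lemma dot_symm (B : Matrix V V ℝ) (hB : B.IsSymm) (u v : V → ℝ) :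
    (B *ᵥ u) ⬝ᵥ v = u ⬝ᵥ (B *ᵥ v) := by
  rw [dotProduct_mulVec, ← mulVec_transpose, hB.eq]

lemma pow_dot (B : Matrix V V ℝ) (hB : B.IsSymm) (w : V → ℝ) (r : ℕ) :
    ((B *ᵥ w) ⬝ᵥ (B *ᵥ w)) ^ (2 ^ r) * (w ⬝ᵥ w) ≤
      ((B ^ 2 ^ r *ᵥ w) ⬝ᵥ (B ^ 2 ^ r *ᵥ w)) * (w ⬝ᵥ w) ^ (2 ^ r) := by
  induction r with
  | zero => simp
  | succ r ih =>
    have h1 : (B ^ 2 ^ r *ᵥ w) ⬝ᵥ (B ^ 2 ^ r *ᵥ w) = w ⬝ᵥ (B ^ 2 ^ (r + 1) *ᵥ w) := by
      rw [dot_symm _ (hB.pow _), mulVec_mulVec, ← pow_add, pow_succ, mul_two]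
    have h2 := dot_sq_le w (B ^ 2 ^ (r + 1) *ᵥ w)
    rw [← h1] at h2
    have hw := dot_nonneg w
    rcases hw.eq_or_lt with h0 | h0
    · rw [← h0]; simp
    have h3 : (((B *ᵥ w) ⬝ᵥ (B *ᵥ w)) ^ (2 ^ r) * (w ⬝ᵥ w)) ^ 2 ≤
        (((B ^ 2 ^ r *ᵥ w) ⬝ᵥ (B ^ 2 ^ r *ᵥ w)) * (w ⬝ᵥ w) ^ (2 ^ r)) ^ 2 :=
      pow_le_pow_left₀ (mul_nonneg (pow_nonneg (dot_nonneg _) _) hw) ih 2
    refine le_of_mul_le_mul_right ?_ h0
    have e1 : ((B *ᵥ w) ⬝ᵥ (B *ᵥ w)) ^ 2 ^ (r + 1) * (w ⬝ᵥ w) * (w ⬝ᵥ w) =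
        (((B *ᵥ w) ⬝ᵥ (B *ᵥ w)) ^ (2 ^ r) * (w ⬝ᵥ w)) ^ 2 := by
      rw [pow_succ 2 r, pow_mul]; ring
    rw [e1]
    refine h3.trans ?_
    rw [mul_pow, ← pow_mul, ← pow_succ]
    have := mul_le_mul_of_nonneg_right h2 (pow_nonneg hw (2 ^ (r + 1)))
    linarith

omit [DecidableEq V] in
lemma bessel2 (c u v : V → ℝ) (hu : 0 < u ⬝ᵥ u) (hv : 0 < v ⬝ᵥ v) (huv : u ⬝ᵥ v = 0) :
    (c ⬝ᵥ u) ^ 2 / (u ⬝ᵥ u) + (c ⬝ᵥ v) ^ 2 / (v ⬝ᵥ v) ≤ c ⬝ᵥ c := by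
  set α := (c ⬝ᵥ u) / (u ⬝ᵥ u) with hα
  set β := (c ⬝ᵥ v) / (v ⬝ᵥ v) with hβ
  have h := dot_nonneg (c - α • u - β • v)
  have hvu : v ⬝ᵥ u = 0 := by rw [dotProduct_comm]; exact huv
  simp only [sub_dotProduct, dotProduct_sub, smul_dotProduct, dotProduct_smul, smul_eq_mul, huv, hvu,
    dotProduct_comm u c, dotProduct_comm v c] at h
  have e1 : (c ⬝ᵥ u) ^ 2 / (u ⬝ᵥ u) = α * (c ⬝ᵥ u) := by rw [hα]; ring
  have e2 : (c ⬝ᵥ v) ^ 2 / (v ⬝ᵥ v) = β * (c ⬝ᵥ v) := by rw [hβ]; ring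
  have e3 : α * (u ⬝ᵥ u) = c ⬝ᵥ u := by rw [hα]; field_simp
  have e4 : β * (v ⬝ᵥ v) = c ⬝ᵥ v := by rw [hβ]; field_simp
  rw [e1, e2]
  have e5 : α * (α * (u ⬝ᵥ u)) = α * (c ⬝ᵥ u) := by rw [e3]
  have e6 : β * (β * (v ⬝ᵥ v)) = β * (c ⬝ᵥ v) := by rw [e4]
  nlinarith

lemma trace_two (B : Matrix V V ℝ) (hB : B.IsSymm) (u v : V → ℝ) (hu : 0 < u ⬝ᵥ u) (hv : 0 < v ⬝ᵥ v)
    (huv : u ⬝ᵥ v = 0) (r : ℕ) :
    (((B *ᵥ u) ⬝ᵥ (B *ᵥ u)) / (u ⬝ᵥ u)) ^ (2 ^ r) + (((B *ᵥ v) ⬝ᵥ (B *ᵥ v)) / (v ⬝ᵥ v)) ^ (2 ^ r) ≤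
      (B ^ 2 ^ (r + 1)).trace := by
  have h : ∀ w : V → ℝ, 0 < w ⬝ᵥ w → (((B *ᵥ w) ⬝ᵥ (B *ᵥ w)) / (w ⬝ᵥ w)) ^ (2 ^ r) ≤
      ((B ^ 2 ^ r *ᵥ w) ⬝ᵥ (B ^ 2 ^ r *ᵥ w)) / (w ⬝ᵥ w) := by
    intro w hw
    rw [div_pow, div_le_div_iff₀ (by positivity) hw]
    exact pow_dot B hB w r
  refine (add_le_add (h u hu) (h v hv)).trans ?_
  have hC := hB.pow (2 ^ r)
  have e : (B ^ 2 ^ (r + 1)).trace = ∑ i, (B ^ 2 ^ r) i ⬝ᵥ (B ^ 2 ^ r) i := by
    rw [pow_succ, mul_two, pow_add]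
    unfold Matrix.trace
    refine sum_congr rfl fun i _ => ?_
    rw [Matrix.diag_apply, Matrix.mul_apply]
    unfold dotProduct
    refine sum_congr rfl fun j _ => ?_
    rw [hC.apply i j]
  rw [e]
  have e2 : ∀ w : V → ℝ, (B ^ 2 ^ r *ᵥ w) ⬝ᵥ (B ^ 2 ^ r *ᵥ w) = ∑ i, ((B ^ 2 ^ r) i ⬝ᵥ w) ^ 2 :=
    fun w => by simp only [dotProduct, mulVec, sq]
  rw [e2, e2, sum_div, sum_div, ← sum_add_distrib]
  exact sum_le_sum fun i _ => bessel2 _ u v hu hv huv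

end Spec

end Vale.Agent.P046
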