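import Vale.Agent.P046.Ineq

/-! Link operators of a nearly regular graph and the potential inequality. -/

open Finset

namespace Vale.Agent.P046

variable {V : Type*} [Fintype V]

/-- Symmetric zero-one weights. -/
structure Adj01 (a : V → V → ℝ) : Prop where
  z1 : ∀ x y, a x y = 0 ∨ a x y = 1
  sym : ∀ x y, a x y = a y x

noncomputable def cod (a : V → V → ℝ) (x y : V) : ℝ := ∑ z, a x z * a y z
noncomputable def dg (a : V → V → ℝ) (x : V) : ℝ := ∑ z, a x z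
noncomputable def Rop (a : V → V → ℝ) (D Δ : ℝ) (x : V) (ψ : V → ℝ) (y : V) : ℝ :=
  (∑ z, a x z * a y z * ψ z) / D - (∑ z, a x z * ψ z) / Δ
def Blk (a : V → V → ℝ) (x : V) : Matrix V V ℝ := Matrix.of fun y z => a x y * a x z * a y z

/-- Near regularity of codegrees of edges and of degrees. -/
structure Reg (a : V → V → ℝ) (D Δ ζ : ℝ) : Prop where
  cd : ∀ x y, a x y = 1 → |cod a x y / D - 1| ≤ ζ
  dd : ∀ x, |dg a x / Δ - 1| ≤ ζ

variable {a : V → V → ℝ}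

omit [Fintype V] in
lemma Adj01.nn (h : Adj01 a) (x y : V) : 0 ≤ a x y := by
  rcases h.z1 x y with e | e <;> simp [e]
omit [Fintype V] in
lemma Adj01.le1 (h : Adj01 a) (x y : V) : a x y ≤ 1 := by
  rcases h.z1 x y with e | e <;> simp [e]
omit [Fintype V] in
lemma Adj01.sq (h : Adj01 a) (x y : V) : a x y * a x y = a x y := by
  rcases h.z1 x y with e | e <;> simp [e]

lemma Reg.cod_le {D Δ ζ : ℝ} (h : Reg a D Δ ζ) (hD : 0 < D) (hζ : ζ ≤ 1) {x y : V} (hxy : a x y = 1) :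
    cod a x y ≤ 2 * D := by
  have := (abs_le.1 (h.cd x y hxy)).2
  have h2 : cod a x y / D ≤ 2 := by linarith
  rwa [div_le_iff₀ hD] at h2

lemma Reg.le_cod {D Δ ζ : ℝ} (h : Reg a D Δ ζ) (hD : 0 < D) {x y : V} (hxy : a x y = 1) :
    (1 - ζ) * D ≤ cod a x y := by
  have := (abs_le.1 (h.cd x y hxy)).1
  have h2 : 1 - ζ ≤ cod a x y / D := by linarith
  rwa [le_div_iff₀ hD] at h2

lemma Reg.dg_le {D Δ ζ : ℝ} (h : Reg a D Δ ζ) (hΔ : 0 < Δ) (hζ : ζ ≤ 1) (x : V) :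
    dg a x ≤ 2 * Δ := by
  have := (abs_le.1 (h.dd x)).2
  have h2 : dg a x / Δ ≤ 2 := by linarith
  rwa [div_le_iff₀ hΔ] at h2

lemma abs_wsum_le (w ψ : V → ℝ) (hw : ∀ z, 0 ≤ w z) (l : ℝ) (h : ∀ z, w z ≠ 0 → |ψ z| ≤ l) :
    |∑ z, w z * ψ z| ≤ (∑ z, w z) * l := by
  rw [sum_mul]
  refine (abs_sum_le_sum_abs _ _).trans (sum_le_sum fun z _ => ?_)
  rw [abs_mul, abs_of_nonneg (hw z)]
  by_cases hz : w z = 0
  · simp [hz]
  · exact mul_le_mul_of_nonneg_left (h z hz) (hw z)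

lemma Rop_inf (ha : Adj01 a) {D Δ ζ : ℝ} (hR : Reg a D Δ ζ) (hD : 0 < D) (hΔ : 0 < Δ) (hζ : ζ ≤ 1)
    (x : V) (ψ : V → ℝ) (l : ℝ) (h : ∀ z, a x z = 1 → |ψ z| ≤ l) (y : V) (hy : a x y = 1) :
    |Rop a D Δ x ψ y| ≤ 4 * l := by
  have hl : 0 ≤ l := (abs_nonneg _).trans (h y hy)
  have h1 := abs_wsum_le (fun z => a x z * a y z) ψ (fun z => mul_nonneg (ha.nn _ _) (ha.nn _ _)) l
    fun z hz => h z ((ha.z1 x z).resolve_left fun e => hz (by simp [e]))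
  have h2 := abs_wsum_le (fun z => a x z) ψ (fun z => ha.nn _ _) l
    fun z hz => h z ((ha.z1 x z).resolve_left hz)
  have h3 := hR.cod_le hD hζ hy
  have h4 := hR.dg_le hΔ hζ x
  have h5 : |(∑ z, a x z * a y z * ψ z) / D| ≤ 2 * l := by
    rw [abs_div, abs_of_pos hD, div_le_iff₀ hD]
    have := mul_le_mul_of_nonneg_right h3 hl
    unfold cod at this; linarith
  have h6 : |(∑ z, a x z * ψ z) / Δ| ≤ 2 * l := by
    rw [abs_div, abs_of_pos hΔ, div_le_iff₀ hΔ]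
    have := mul_le_mul_of_nonneg_right h4 hl
    unfold dg at this; linarith
  have := abs_sub ((∑ z, a x z * a y z * ψ z) / D) ((∑ z, a x z * ψ z) / Δ)
  unfold Rop; linarith

open Matrix in
lemma Rop_two [DecidableEq V] (ha : Adj01 a) {D Δ ζ c e : ℝ} (hR : Reg a D Δ ζ) (hD : 0 < D)
    (hΔ : 0 < Δ) (hζ : ζ ≤ 1 / 2) (he : 0 < e) (r : ℕ) (hc : c + 2 ^ (r + 1) * ζ ≤ e ^ 2 ^ (r + 1))
    (x : V) (htr : (Blk a x ^ 2 ^ (r + 1)).trace ≤ (1 + c) * D ^ 2 ^ (r + 1)) (ψ : V → ℝ) :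
    ∑ y, a x y * Rop a D Δ x ψ y ^ 2 ≤ (2 * e ^ 2 + 8 * ζ ^ 2) * ∑ z, a x z * ψ z ^ 2 := by
  have hζ0 : 0 ≤ ζ := (abs_nonneg _).trans (hR.dd x)
  have hB : (Blk a x).IsSymm := by
    ext y z; simp only [Blk, transpose_apply, of_apply]; rw [ha.sym z y]; ring
  have hN : 0 < dg a x := by
    have := (abs_le.1 (hR.dd x)).1
    have h2 : 0 < dg a x / Δ := by linarith
    exact (div_pos_iff_of_pos_right hΔ).1 h2
  set μ := (∑ z, a x z * ψ z) / dg a x with hμ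
  set v : V → ℝ := fun z => a x z * (ψ z - μ) with hv
  have huu : a x ⬝ᵥ a x = dg a x := sum_congr rfl fun z _ => ha.sq x z
  have hsum : ∑ z, a x z * ψ z = μ * dg a x := by rw [hμ]; field_simp
  have huv : a x ⬝ᵥ v = 0 := by
    have : a x ⬝ᵥ v = ∑ z, a x z * ψ z - μ * dg a x := by
      unfold dg; rw [mul_sum, ← sum_sub_distrib]
      refine sum_congr rfl fun z _ => ?_
      simp only [hv]; rw [← mul_assoc, ha.sq]; ring
    rw [this, hsum, sub_self]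
  have hvv : v ⬝ᵥ v = ∑ z, a x z * ψ z ^ 2 - μ ^ 2 * dg a x := by
    have : v ⬝ᵥ v = ∑ z, a x z * ψ z ^ 2 - 2 * μ * ∑ z, a x z * ψ z + μ ^ 2 * dg a x := by
      unfold dg; rw [mul_sum, mul_sum, ← sum_sub_distrib, ← sum_add_distrib]
      refine sum_congr rfl fun z _ => ?_
      simp only [hv]
      rcases ha.z1 x z with h | h <;> rw [h] <;> ring
    rw [this, hsum]; ring
  have hBu : ((1 - ζ) * D) ^ 2 ≤ ((Blk a x *ᵥ a x) ⬝ᵥ (Blk a x *ᵥ a x)) / (a x ⬝ᵥ a x) := by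
    rw [huu, le_div_iff₀ hN]
    unfold dg; rw [mul_sum]
    refine sum_le_sum fun y _ => ?_
    have e1 : (Blk a x *ᵥ a x) y = a x y * cod a x y := by
      simp only [mulVec, dotProduct, Blk, of_apply, cod, mul_sum]
      refine sum_congr rfl fun z _ => ?_
      rcases ha.z1 x z with h | h <;> rw [h] <;> ring
    rw [e1]
    rcases ha.z1 x y with h | h
    · simp [h]
    · rw [h]
      have := hR.le_cod hD h
      have h0 : 0 ≤ (1 - ζ) * D := mul_nonneg (by linarith) hD.le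
      nlinarith
  have hBv : (Blk a x *ᵥ v) ⬝ᵥ (Blk a x *ᵥ v) ≤ (e * D) ^ 2 * (v ⬝ᵥ v) := by
    rcases (dot_nonneg v).eq_or_lt with h0 | h0
    · have : v = 0 := dotProduct_self_eq_zero.1 h0.symm
      rw [this]; simp
    have h1 := trace_two _ hB (a x) v (by rw [huu]; exact hN) h0 huv r
    have h2 : (((1 - ζ) * D) ^ 2) ^ 2 ^ r ≤ _ := pow_le_pow_left₀ (sq_nonneg _) hBu (2 ^ r)
    have h3 : 1 - 2 ^ (r + 1) * ζ ≤ (1 - ζ) ^ 2 ^ (r + 1) := by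
      have := one_add_mul_le_pow (a := -ζ) (by linarith) (2 ^ (r + 1))
      push_cast at this
      rw [sub_eq_add_neg 1 ζ]; linarith
    have h4 : (((1 - ζ) * D) ^ 2) ^ 2 ^ r = (1 - ζ) ^ 2 ^ (r + 1) * D ^ 2 ^ (r + 1) := by
      rw [← pow_mul, mul_pow, pow_succ 2 r, mul_comm 2]
    have h5 : ((e * D) ^ 2) ^ 2 ^ r = e ^ 2 ^ (r + 1) * D ^ 2 ^ (r + 1) := by
      rw [← pow_mul, mul_pow, pow_succ 2 r, mul_comm 2]
    have h6 : 0 ≤ D ^ 2 ^ (r + 1) := by positivity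
    have h7 : (((Blk a x *ᵥ v) ⬝ᵥ (Blk a x *ᵥ v)) / (v ⬝ᵥ v)) ^ 2 ^ r ≤ ((e * D) ^ 2) ^ 2 ^ r := by
      rw [h5]; rw [h4] at h2
      nlinarith [mul_le_mul_of_nonneg_right h3 h6, mul_le_mul_of_nonneg_right hc h6]
    have h8 := (pow_le_pow_iff_left₀ (div_nonneg (dot_nonneg _) h0.le) (sq_nonneg _)
      (by positivity)).1 h7
    rwa [div_le_iff₀ h0] at h8
  have hpt : ∀ y, a x y * Rop a D Δ x ψ y ^ 2 ≤
      2 / D ^ 2 * ((Blk a x *ᵥ v) y * (Blk a x *ᵥ v) y) + 8 * ζ ^ 2 * μ ^ 2 * a x y := by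
    intro y
    rcases ha.z1 x y with h | h
    · rw [h]; simp only [zero_mul, mul_zero, add_zero]
      exact mul_nonneg (by positivity) (mul_self_nonneg _)
    · have e1 : (Blk a x *ᵥ v) y = ∑ z, a x z * a y z * ψ z - μ * cod a x y := by
        simp only [mulVec, dotProduct, Blk, of_apply, cod, mul_sum, hv, h, ← sum_sub_distrib]
        refine sum_congr rfl fun z _ => ?_
        rcases ha.z1 x z with h | h <;> rw [h] <;> ring
      have e2 : Rop a D Δ x ψ y = (Blk a x *ᵥ v) y / D + μ * ((cod a x y / D - 1) - (dg a x / Δ - 1)) := by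
        rw [e1]; unfold Rop; rw [hsum]; ring
      have h1 := abs_le.1 (hR.cd x y h)
      have h2 := abs_le.1 (hR.dd x)
      have h3 : ((cod a x y / D - 1) - (dg a x / Δ - 1)) ^ 2 ≤ (2 * ζ) ^ 2 :=
        sq_le_sq' (by linarith) (by linarith)
      rw [e2, h]
      have h4 := mul_le_mul_of_nonneg_left h3 (sq_nonneg μ)
      have e3 : 2 / D ^ 2 * ((Blk a x *ᵥ v) y * (Blk a x *ᵥ v) y) = 2 * ((Blk a x *ᵥ v) y / D) ^ 2 := by
        ring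
      rw [e3]
      nlinarith [sq_nonneg ((Blk a x *ᵥ v) y / D - μ * ((cod a x y / D - 1) - (dg a x / Δ - 1)))]
  refine (sum_le_sum fun y _ => hpt y).trans ?_
  rw [sum_add_distrib, ← mul_sum, ← mul_sum]
  have h1 : 2 / D ^ 2 * ∑ y, (Blk a x *ᵥ v) y * (Blk a x *ᵥ v) y ≤ 2 * e ^ 2 * (v ⬝ᵥ v) := by
    have := mul_le_mul_of_nonneg_left hBv (by positivity : 0 ≤ 2 / D ^ 2)
    have e3 : 2 / D ^ 2 * ((e * D) ^ 2 * (v ⬝ᵥ v)) = 2 * e ^ 2 * (v ⬝ᵥ v) := by field_simp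
    rw [e3] at this; exact this
  have h2 := dot_nonneg v
  have h3 : 0 ≤ μ ^ 2 * dg a x := by positivity
  have h4 : ∑ y, a x y = dg a x := rfl
  rw [h4]
  rw [hvv] at h1 h2
  nlinarith [mul_nonneg (sq_nonneg e) h3, mul_nonneg (sq_nonneg ζ) h2]

/-- The interpolated bound for all link operators. -/
def LinkP (a : V → V → ℝ) (D Δ Γ : ℝ) (p : ℕ) : Prop :=
  ∀ x ψ, ∑ y, a x y * |Rop a D Δ x ψ y| ^ p ≤ Γ * ∑ z, a x z * |ψ z| ^ p

lemma linkP_of [DecidableEq V] (ha : Adj01 a) {D Δ ζ c e Γ : ℝ} (hR : Reg a D Δ ζ) (hD : 0 < D)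
    (hΔ : 0 < Δ) (hζ : ζ ≤ 1 / 2) (he : 0 < e) (r : ℕ) (hc : c + 2 ^ (r + 1) * ζ ≤ e ^ 2 ^ (r + 1))
    (htr : ∀ x, (Blk a x ^ 2 ^ (r + 1)).trace ≤ (1 + c) * D ^ 2 ^ (r + 1)) (m : ℕ)
    (hΓ : 8 * 16 ^ (m + 1) * (2 * e ^ 2 + 8 * ζ ^ 2) ≤ Γ) : LinkP a D Δ Γ (m + 3) := by
  intro x ψ
  refine (interp (a x) (ha.z1 x) (Rop a D Δ x) ?_ _ (by positivity)
    (Rop_inf ha hR hD hΔ (by linarith) x) (Rop_two ha hR hD hΔ hζ he r hc x (htr x)) m ψ).trans ?_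
  · intro f g y
    simp only [Rop, mul_add, sum_add_distrib]; ring
  · exact mul_le_mul_of_nonneg_right hΓ (sum_nonneg fun z _ => mul_nonneg (ha.nn _ _) (by positivity))

lemma pot1 (ha : Adj01 a) {D Δ Γ s E : ℝ} (hΔ : 0 < Δ) (hdg : ∀ x, dg a x ≤ 2 * Δ) (m : ℕ)
    (hm : Even m) (hs : 0 < s) (hs1 : s ≤ 1) (hM : LinkP a D Δ Γ (m + 2))
    (hΓ : Γ ≤ (s ^ 2 / 4) ^ (m + 2)) (φ χ r e : V → V → ℝ) (δ : V → ℝ)
    (hφ : ∀ x y, a x y = 1 → φ x y = χ x y + δ x + δ y + r x y)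
    (hr : ∀ x y, a x y = 1 → |r x y| ≤ E) (he : ∀ x y, a x y = 1 → |e x y| ≤ E) (hE : 0 ≤ E) :
    ∑ x, ∑ y, a x y * (χ x y ^ (m + 1) * (-Rop a D Δ x (φ x) y - Rop a D Δ y (φ y) x + e x y)) ≤
      5 * s * (∑ x, ∑ y, a x y * χ x y ^ (m + 2)) + 8 * s * s ^ (m + 2) * Δ * (∑ x, δ x ^ (m + 2)) +
        (4 + 2 * (1 / s) ^ (m + 1)) * Δ * Fintype.card V * E ^ (m + 2) := by
  have hev : ∀ t : ℝ, |t| ^ (m + 2) = t ^ (m + 2) := fun t => (hm.add even_two).pow_abs t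
  set X := ∑ x, ∑ y, a x y * χ x y ^ (m + 2) with hX
  set Y := ∑ x, δ x ^ (m + 2) with hY
  set t := (1 / s) ^ (m + 1) with ht
  have ht0 : 0 ≤ t := by positivity
  have hδ0 : ∀ x, 0 ≤ δ x ^ (m + 2) := fun x => by rw [← hev]; positivity
  have hX0 : 0 ≤ X := sum_nonneg fun x _ => sum_nonneg fun y _ =>
    mul_nonneg (ha.nn _ _) (by rw [← hev]; positivity)
  have hY0 : 0 ≤ Y := sum_nonneg fun x _ => hδ0 x
  have hA : ∑ x, ∑ y, a x y ≤ 2 * Δ * Fintype.card V := by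
    calc _ ≤ ∑ _x : V, 2 * Δ := sum_le_sum fun x _ => hdg x
      _ = _ := by rw [sum_const, card_univ, nsmul_eq_mul]; ring
  have hY1 : ∑ x, ∑ y, a x y * δ x ^ (m + 2) ≤ 2 * Δ * Y := by
    rw [hY, mul_sum]
    refine sum_le_sum fun x _ => ?_
    rw [← sum_mul]; exact mul_le_mul_of_nonneg_right (hdg x) (hδ0 x)
  have hY2 : ∑ x, ∑ y, a x y * δ y ^ (m + 2) ≤ 2 * Δ * Y := by
    rw [sum_comm]; simpa only [ha.sym _ _] using (by simpa only [fun x y => ha.sym y x] using hY1)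
  have hΦ : ∑ x, ∑ y, a x y * |φ x y| ^ (m + 2) ≤
      4 ^ (m + 2) * (X + 4 * Δ * Y + 2 * Δ * Fintype.card V * E ^ (m + 2)) := by
    have : ∑ x, ∑ y, a x y * |φ x y| ^ (m + 2) ≤ ∑ x, ∑ y, 4 ^ (m + 2) * (a x y * χ x y ^ (m + 2) +
        a x y * δ x ^ (m + 2) + a x y * δ y ^ (m + 2) + a x y * E ^ (m + 2)) := by
      refine sum_le_sum fun x _ => sum_le_sum fun y _ => ?_
      rcases ha.z1 x y with h | h
      · simp [h]
      · rw [h, hφ x y h]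
        have h1 := four_pow_le (χ x y) (δ x) (δ y) (r x y) (m + 2)
        have h2 : |r x y| ^ (m + 2) ≤ E ^ (m + 2) := pow_le_pow_left₀ (abs_nonneg _) (hr x y h) _
        rw [hev (χ x y), hev (δ x), hev (δ y)] at h1
        have h3 := mul_le_mul_of_nonneg_left h2 (by positivity : (0 : ℝ) ≤ 4 ^ (m + 2))
        simp only [one_mul]; linarith
    refine this.trans ?_
    simp only [← mul_sum, sum_add_distrib, ← sum_mul]
    refine mul_le_mul_of_nonneg_left ?_ (by positivity)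
    have h4 := mul_le_mul_of_nonneg_right hA (by positivity : 0 ≤ E ^ (m + 2))
    simp only [← sum_mul] at hY1
    linarith
  have hΦ0 : 0 ≤ ∑ x, ∑ y, a x y * |φ x y| ^ (m + 2) :=
    sum_nonneg fun x _ => sum_nonneg fun y _ => mul_nonneg (ha.nn _ _) (by positivity)
  have hR1 : ∑ x, ∑ y, a x y * |Rop a D Δ x (φ x) y| ^ (m + 2) ≤
      (s ^ 2 / 4) ^ (m + 2) * ∑ x, ∑ y, a x y * |φ x y| ^ (m + 2) := by
    refine le_trans ?_ (mul_le_mul_of_nonneg_right hΓ hΦ0)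
    rw [mul_sum]; exact sum_le_sum fun x _ => hM x (φ x)
  have hR2 : ∑ x, ∑ y, a x y * |Rop a D Δ y (φ y) x| ^ (m + 2) =
      ∑ x, ∑ y, a x y * |Rop a D Δ x (φ x) y| ^ (m + 2) := by
    rw [sum_comm]; exact sum_congr rfl fun x _ => sum_congr rfl fun y _ => by rw [ha.sym]
  have hmain : ∑ x, ∑ y, a x y * (χ x y ^ (m + 1) *
      (-Rop a D Δ x (φ x) y - Rop a D Δ y (φ y) x + e x y)) ≤
      ∑ x, ∑ y, (3 * s * (a x y * χ x y ^ (m + 2)) + t * (a x y * |Rop a D Δ x (φ x) y| ^ (m + 2)) +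
        t * (a x y * |Rop a D Δ y (φ y) x| ^ (m + 2)) + t * E ^ (m + 2) * a x y) := by
    refine sum_le_sum fun x _ => sum_le_sum fun y _ => ?_
    rcases ha.z1 x y with h | h
    · simp [h]
    · rw [h]
      have h1 := young |χ x y| _ s (abs_nonneg _) (abs_nonneg (Rop a D Δ x (φ x) y)) hs m
      have h2 := young |χ x y| _ s (abs_nonneg _) (abs_nonneg (Rop a D Δ y (φ y) x)) hs m
      have h3 := young |χ x y| E s (abs_nonneg _) hE hs m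
      have h4 : χ x y ^ (m + 1) * (-Rop a D Δ x (φ x) y - Rop a D Δ y (φ y) x + e x y) ≤
          |χ x y| ^ (m + 1) * (|Rop a D Δ x (φ x) y| + |Rop a D Δ y (φ y) x| + E) := by
        refine (le_abs_self _).trans ?_
        rw [abs_mul, abs_pow]
        refine mul_le_mul_of_nonneg_left ?_ (by positivity)
        have := he x y h
        rw [abs_le] at this ⊢
        constructor <;> linarith [le_abs_self (Rop a D Δ x (φ x) y), neg_abs_le (Rop a D Δ x (φ x) y),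
          le_abs_self (Rop a D Δ y (φ y) x), neg_abs_le (Rop a D Δ y (φ y) x)]
      rw [hev (χ x y)] at h1 h2 h3
      simp only [one_mul, mul_one]; linarith
  refine hmain.trans ?_
  simp only [sum_add_distrib, ← mul_sum]
  rw [hR2]
  have e1 : t * (s ^ 2 / 4) ^ (m + 2) * 4 ^ (m + 2) = s * s ^ (m + 2) := by
    rw [ht, mul_assoc, ← mul_pow, show s ^ 2 / 4 * 4 = s * s by ring, mul_pow, one_div, inv_pow]
    field_simp; ring
  have h5 : t * ∑ x, ∑ y, a x y * |Rop a D Δ x (φ x) y| ^ (m + 2) ≤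
      s * s ^ (m + 2) * (X + 4 * Δ * Y + 2 * Δ * Fintype.card V * E ^ (m + 2)) := by
    rw [← e1, mul_assoc, mul_assoc]
    refine mul_le_mul_of_nonneg_left (hR1.trans ?_) ht0
    exact mul_le_mul_of_nonneg_left hΦ (by positivity)
  have hκ : s ^ (m + 2) ≤ 1 := pow_le_one₀ hs.le hs1
  have hκ2 : s * s ^ (m + 2) ≤ 1 := by nlinarith [pow_nonneg hs.le (m + 2)]
  have h6 : s * s ^ (m + 2) * X ≤ s * X := by
    rw [mul_assoc]; exact mul_le_mul_of_nonneg_left (mul_le_of_le_one_left hX0 hκ) hs.le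
  have h7 : s * s ^ (m + 2) * (2 * Δ * Fintype.card V * E ^ (m + 2)) ≤
      2 * Δ * Fintype.card V * E ^ (m + 2) := mul_le_of_le_one_left (by positivity) hκ2
  have h8 := mul_le_mul_of_nonneg_left hA (by positivity : 0 ≤ t * E ^ (m + 2))
  rw [← hX]
  nlinarith

lemma pot2 (ha : Adj01 a) {Δ s E : ℝ} (hΔ : 0 < Δ) (hdg : ∀ x, dg a x ≤ 2 * Δ) (m : ℕ)
    (hm : Even m) (hs : 0 < s) (φ χ r : V → V → ℝ) (δ : V → ℝ)
    (hφ : ∀ x y, a x y = 1 → φ x y = χ x y + δ x + δ y + r x y)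
    (hr : ∀ x y, a x y = 1 → |r x y| ≤ E) (hE : 0 ≤ E) :
    ∑ x, δ x ^ (m + 1) * (-∑ z, a x z * φ x z) ≤
      (1 / s) ^ (m + 1) * (∑ x, ∑ y, a x y * χ x y ^ (m + 2)) + 4 * s * Δ * (∑ x, δ x ^ (m + 2)) +
        2 * (1 / s) ^ (m + 1) * Δ * Fintype.card V * E ^ (m + 2) := by
  have hev : ∀ t : ℝ, |t| ^ (m + 2) = t ^ (m + 2) := fun t => (hm.add even_two).pow_abs t
  set t := (1 / s) ^ (m + 1) with ht
  have ht0 : 0 ≤ t := by positivity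
  have hδ0 : ∀ x, 0 ≤ δ x ^ (m + 2) := fun x => by rw [← hev]; positivity
  have hA : ∑ x, ∑ y, a x y ≤ 2 * Δ * Fintype.card V := by
    calc _ ≤ ∑ _x : V, 2 * Δ := sum_le_sum fun x _ => hdg x
      _ = _ := by rw [sum_const, card_univ, nsmul_eq_mul]; ring
  have hY1 : ∑ x, ∑ y, a x y * δ x ^ (m + 2) ≤ 2 * Δ * ∑ x, δ x ^ (m + 2) := by
    rw [mul_sum]
    refine sum_le_sum fun x _ => ?_
    rw [← sum_mul]; exact mul_le_mul_of_nonneg_right (hdg x) (hδ0 x)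
  have hsym : 0 ≤ ∑ x, ∑ y, a x y * (δ x ^ (m + 2) - |δ x| ^ (m + 1) * |δ y|) := by
    have e1 : ∑ x, ∑ y, a x y * (δ x ^ (m + 2) - |δ x| ^ (m + 1) * |δ y|) =
        ∑ x, ∑ y, a x y * (δ y ^ (m + 2) - |δ y| ^ (m + 1) * |δ x|) := by
      rw [sum_comm]; exact sum_congr rfl fun x _ => sum_congr rfl fun y _ => by rw [ha.sym]
    have h2 : 0 ≤ ∑ x, ∑ y, (a x y * (δ x ^ (m + 2) - |δ x| ^ (m + 1) * |δ y|) +
        a x y * (δ y ^ (m + 2) - |δ y| ^ (m + 1) * |δ x|)) := by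
      refine sum_nonneg fun x _ => sum_nonneg fun y _ => ?_
      rw [← mul_add]
      refine mul_nonneg (ha.nn _ _) ?_
      have := young_sym _ _ (abs_nonneg (δ x)) (abs_nonneg (δ y)) m
      rw [hev, hev] at this; linarith
    simp only [sum_add_distrib] at h2
    linarith
  have hmain : ∑ x, δ x ^ (m + 1) * (-∑ z, a x z * φ x z) ≤
      ∑ x, ∑ y, (-(a x y * (δ x ^ (m + 2) - |δ x| ^ (m + 1) * |δ y|)) +
        2 * s * (a x y * δ x ^ (m + 2)) + t * (a x y * χ x y ^ (m + 2)) + t * E ^ (m + 2) * a x y) := by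
    refine sum_le_sum fun x _ => ?_
    rw [← sum_neg_distrib, mul_sum]
    refine sum_le_sum fun y _ => ?_
    rcases ha.z1 x y with h | h
    · simp [h]
    · rw [h, hφ x y h]
      have h1 := young |δ x| _ s (abs_nonneg _) (abs_nonneg (χ x y)) hs m
      have h3 := young |δ x| E s (abs_nonneg _) hE hs m
      have h4 : ∀ w : ℝ, -(δ x ^ (m + 1) * w) ≤ |δ x| ^ (m + 1) * |w| := fun w => by
        rw [← abs_pow, ← abs_mul]; exact neg_le_abs _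
      have h5 := mul_le_mul_of_nonneg_left (hr x y h) (pow_nonneg (abs_nonneg (δ x)) (m + 1))
      have h6 := h4 (χ x y)
      have h7 := h4 (δ y)
      have h8 := h4 (r x y)
      rw [hev (δ x), hev (χ x y)] at h1
      rw [hev (δ x)] at h3
      have e : δ x ^ (m + 1) * -(1 * (χ x y + δ x + δ y + r x y)) = -(δ x ^ (m + 1) * χ x y) -
          δ x ^ (m + 2) + -(δ x ^ (m + 1) * δ y) + -(δ x ^ (m + 1) * r x y) := by ring
      rw [e]; simp only [one_mul, mul_one]; linarith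
  refine hmain.trans ?_
  simp only [sum_add_distrib, ← mul_sum, sum_neg_distrib]
  have h8 := mul_le_mul_of_nonneg_left hA (by positivity : 0 ≤ t * E ^ (m + 2))
  have h9 := mul_le_mul_of_nonneg_left hY1 (by positivity : 0 ≤ 2 * s)
  nlinarith

/-- The potential. -/
noncomputable def Psi (a : V → V → ℝ) (Δ κ : ℝ) (p : ℕ) (χ : V → V → ℝ) (δ : V → ℝ) : ℝ :=
  (∑ x, ∑ y, a x y * χ x y ^ p) / Δ + κ * ∑ x, δ x ^ p

lemma exp_taylor {Ω : Type*} [Fintype Ω] (wt : Ω → ℝ) (hw : ∀ ω, 0 ≤ wt ω) (hw1 : ∑ ω, wt ω = 1)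
    (m : ℕ) (hm : Even m) (b u E : ℝ) (hu : 0 ≤ u) (hE : 0 ≤ E) (b' : Ω → ℝ)
    (h1 : ∀ ω, wt ω ≠ 0 → |b' ω - b| ≤ E) (h2 : ∑ ω, wt ω * (b' ω - b) ^ 2 ≤ u * E ^ 2) :
    ∑ ω, wt ω * b' ω ^ (m + 2) ≤ (1 + u) * b ^ (m + 2) +
      (m + 2) * b ^ (m + 1) * ∑ ω, wt ω * (b' ω - b) + u * (kT m ^ (m + 1) + kT m) * E ^ (m + 2) := by
  have hK := one_le_kT m
  have hg : 0 ≤ kT m * (|b| ^ m + E ^ m) := by positivity
  have h3 : ∑ ω, wt ω * b' ω ^ (m + 2) ≤ ∑ ω, (wt ω * b ^ (m + 2) +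
      (m + 2) * b ^ (m + 1) * (wt ω * (b' ω - b)) +
      wt ω * (b' ω - b) ^ 2 * (kT m * (|b| ^ m + E ^ m))) := by
    refine sum_le_sum fun ω _ => ?_
    by_cases h : wt ω = 0
    · simp [h]
    · have := mul_le_mul_of_nonneg_left (taylor_le b (b' ω - b) E m (h1 ω h)) (hw ω)
      rw [add_sub_cancel] at this
      linarith
  simp only [sum_add_distrib, ← sum_mul, ← mul_sum, hw1, one_mul] at h3
  have h4 := mul_le_mul_of_nonneg_right h2 hg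
  have h5 := mul_le_mul_of_nonneg_left (absorb b E hE m) hu
  rw [(hm.add even_two).pow_abs] at h5
  nlinarith

/-- Constant in the potential inequality. -/
noncomputable def cP (m : ℕ) (s : ℝ) : ℝ :=
  2 * (m + 2) * (6 + 2 * (1 / s) ^ (m + 1)) + 5 * (kT m ^ (m + 1) + kT m)

lemma pot_arith {A B X Y Z Δ Δ' P u u1 u2 s t κ C : ℝ} (hΔ : 0 < Δ) (hΔ' : 0 < Δ') (hP0 : 0 ≤ P)
    (hX0 : 0 ≤ X) (hY0 : 0 ≤ Y) (hZ0 : 0 ≤ Z) (hC0 : 0 ≤ C) (ht0 : 0 ≤ t) (hκ0 : 0 ≤ κ) (hκ1 : κ ≤ 1)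
    (hκt : κ * t = s) (hs : 0 ≤ s) (hs1 : s ≤ 1) (hu : 0 ≤ u) (hu' : u ≤ 1 / 2)
    (hu1' : u1 * Δ / Δ' ≤ 2 * u) (hu2 : 0 ≤ u2) (hu2' : u2 ≤ 2 * u) (hq : Δ / Δ' ≤ 1 + 2 * u)
    (q1 : A ≤ (1 + u) * X +
      P * u1 * (5 * s * X + 8 * s * κ * Δ * Y + (4 + 2 * t) * Δ * Z) + u * C * (2 * Δ * Z))
    (q2 : B ≤ (1 + u) * Y + P * u2 * (t * (X / Δ) + 4 * s * Y + 2 * t * Z) + u * C * Z) :
    A / Δ' + κ * B ≤ (1 + u * (4 + 24 * P * s)) * (X / Δ + κ * Y) +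
      u * (2 * P * (6 + 2 * t) + 5 * C) * Z := by
  set X1 := X / Δ with hX1
  have hX10 : 0 ≤ X1 := by positivity
  have r1 : A / Δ' ≤ (1 + 4 * u) * X1 +
      P * (2 * u) * (5 * s * X1 + 8 * s * κ * Y + (4 + 2 * t) * Z) + 4 * u * C * Z := by
    refine (div_le_div_of_nonneg_right q1 hΔ'.le).trans ?_
    have e1 : ((1 + u) * X + P * u1 * (5 * s * X + 8 * s * κ * Δ * Y + (4 + 2 * t) * Δ * Z) +
        u * C * (2 * Δ * Z)) / Δ' = Δ / Δ' * ((1 + u) * X1) +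
        P * (u1 * Δ / Δ') * (5 * s * X1 + 8 * s * κ * Y + (4 + 2 * t) * Z) + Δ / Δ' * (2 * u * C * Z) := by
      rw [hX1]; field_simp
    rw [e1]
    have h1 : Δ / Δ' * ((1 + u) * X1) ≤ (1 + 4 * u) * X1 := by
      rw [← mul_assoc]
      refine mul_le_mul_of_nonneg_right ?_ hX10
      nlinarith [mul_le_mul_of_nonneg_right hq (by linarith : 0 ≤ 1 + u)]
    have h2 : P * (u1 * Δ / Δ') * (5 * s * X1 + 8 * s * κ * Y + (4 + 2 * t) * Z) ≤
        P * (2 * u) * (5 * s * X1 + 8 * s * κ * Y + (4 + 2 * t) * Z) := by gcongr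
    have h3 : Δ / Δ' * (2 * u * C * Z) ≤ 2 * (2 * u * C * Z) :=
      mul_le_mul_of_nonneg_right (by linarith) (by positivity)
    linarith
  have r2 : κ * B ≤ (1 + u) * (κ * Y) +
      P * (2 * u) * (s * X1 + 4 * s * κ * Y + 2 * Z) + u * C * Z := by
    refine (mul_le_mul_of_nonneg_left q2 hκ0).trans ?_
    have e1 : κ * ((1 + u) * Y + P * u2 * (t * X1 + 4 * s * Y + 2 * t * Z) + u * C * Z) =
        (1 + u) * (κ * Y) + P * u2 * (κ * t * X1 + 4 * s * κ * Y + 2 * (κ * t) * Z) + κ * (u * C * Z) := by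
      ring
    rw [e1, hκt]
    have h2 : P * u2 * (s * X1 + 4 * s * κ * Y + 2 * s * Z) ≤
        P * (2 * u) * (s * X1 + 4 * s * κ * Y + 2 * Z) := by
      have : 2 * s * Z ≤ 2 * Z := by nlinarith
      gcongr
    have h3 : κ * (u * C * Z) ≤ u * C * Z := mul_le_of_le_one_left (by positivity) hκ1
    linarith
  have g1 : 0 ≤ u * P * s * X1 := by positivity
  have g2 : 0 ≤ u * (κ * Y) := by positivity
  nlinarith

lemma pot_step (ha : Adj01 a) {D Δ Δ' Γ s E u u1 u2 : ℝ} (hΔ : 0 < Δ) (hΔ' : 0 < Δ')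
    (hdg : ∀ x, dg a x ≤ 2 * Δ) (m : ℕ)
    (hm : Even m) (hs : 0 < s) (hs1 : s ≤ 1) (hM : LinkP a D Δ Γ (m + 2))
    (hΓ : Γ ≤ (s ^ 2 / 4) ^ (m + 2)) (φ χ r e : V → V → ℝ) (δ : V → ℝ)
    (hφ : ∀ x y, a x y = 1 → φ x y = χ x y + δ x + δ y + r x y)
    (hr : ∀ x y, a x y = 1 → |r x y| ≤ E) (he : ∀ x y, a x y = 1 → |e x y| ≤ E) (hE : 0 ≤ E)
    (hu : 0 ≤ u) (hu' : u ≤ 1 / 2) (hu1 : 0 ≤ u1) (hu1' : u1 * Δ / Δ' ≤ 2 * u) (hu2 : 0 ≤ u2)
    (hu2' : u2 ≤ 2 * u) (hq : Δ / Δ' ≤ 1 + 2 * u)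
    {Ω : Type*} [Fintype Ω] (wt : Ω → ℝ) (hw : ∀ ω, 0 ≤ wt ω) (hw1 : ∑ ω, wt ω = 1)
    (a' χ' : Ω → V → V → ℝ) (δ' : Ω → V → ℝ) (ha' : ∀ ω x y, a' ω x y ≤ a x y)
    (hχ1 : ∀ x y, a x y = 1 → ∀ ω, wt ω ≠ 0 → |χ' ω x y - χ x y| ≤ E)
    (hχ2 : ∀ x y, a x y = 1 → ∑ ω, wt ω * (χ' ω x y - χ x y) ^ 2 ≤ u * E ^ 2)
    (hχ3 : ∀ x y, a x y = 1 → ∑ ω, wt ω * (χ' ω x y - χ x y) =
      u1 * (-Rop a D Δ x (φ x) y - Rop a D Δ y (φ y) x + e x y))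
    (hδ1 : ∀ x, ∀ ω, wt ω ≠ 0 → |δ' ω x - δ x| ≤ E)
    (hδ2 : ∀ x, ∑ ω, wt ω * (δ' ω x - δ x) ^ 2 ≤ u * E ^ 2)
    (hδ3 : ∀ x, ∑ ω, wt ω * (δ' ω x - δ x) = u2 * (-(∑ z, a x z * φ x z) / Δ)) :
    ∑ ω, wt ω * Psi (a' ω) Δ' (s ^ (m + 2)) (m + 2) (χ' ω) (δ' ω) ≤
      (1 + u * (4 + 24 * (m + 2) * s)) * Psi a Δ (s ^ (m + 2)) (m + 2) χ δ +
        u * cP m s * Fintype.card V * E ^ (m + 2) := by
  have hev : ∀ t : ℝ, 0 ≤ t ^ (m + 2) := fun t => (hm.add even_two).pow_nonneg t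
  have hK := one_le_kT m
  set C := kT m ^ (m + 1) + kT m with hC
  have hC0 : 0 ≤ C := by positivity
  set X := ∑ x, ∑ y, a x y * χ x y ^ (m + 2) with hX
  set Y := ∑ x, δ x ^ (m + 2) with hY
  set t := (1 / s) ^ (m + 1) with ht
  set Z := (Fintype.card V : ℝ) * E ^ (m + 2) with hZ
  set κ := s ^ (m + 2) with hκ
  set P : ℝ := m + 2 with hP
  have hP0 : 0 ≤ P := by positivity
  have ht0 : 0 ≤ t := by positivity
  have hZ0 : 0 ≤ Z := by positivity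
  have hκ0 : 0 ≤ κ := by positivity
  have hκ1 : κ ≤ 1 := pow_le_one₀ hs.le hs1
  have hκt : κ * t = s := by rw [hκ, ht, one_div, inv_pow]; field_simp; ring
  have hX0 : 0 ≤ X := sum_nonneg fun x _ => sum_nonneg fun y _ => mul_nonneg (ha.nn _ _) (hev _)
  have hY0 : 0 ≤ Y := sum_nonneg fun x _ => hev _
  have hA : ∑ x, ∑ y, a x y ≤ 2 * Δ * Fintype.card V := by
    calc _ ≤ ∑ _x : V, 2 * Δ := sum_le_sum fun x _ => hdg x
      _ = _ := by rw [sum_const, card_univ, nsmul_eq_mul]; ring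
  have p1 := pot1 ha hΔ hdg m hm hs hs1 hM hΓ φ χ r e δ hφ hr he hE
  have p2 := pot2 ha hΔ hdg m hm hs φ χ r δ hφ hr hE
  rw [← hX, ← hY, ← ht] at p1 p2
  rw [← hκ] at p1
  have q1 : ∑ ω, wt ω * ∑ x, ∑ y, a' ω x y * χ' ω x y ^ (m + 2) ≤ (1 + u) * X +
      P * u1 * (5 * s * X + 8 * s * κ * Δ * Y + (4 + 2 * t) * Δ * Z) + u * C * (2 * Δ * Z) := by
    have h1 : ∑ ω, wt ω * ∑ x, ∑ y, a' ω x y * χ' ω x y ^ (m + 2) ≤
        ∑ x, ∑ y, a x y * ∑ ω, wt ω * χ' ω x y ^ (m + 2) := by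
      simp only [mul_sum]
      rw [sum_comm]
      refine sum_le_sum fun x _ => ?_
      rw [sum_comm]
      refine sum_le_sum fun y _ => sum_le_sum fun ω _ => ?_
      have := mul_le_mul_of_nonneg_right (ha' ω x y) (mul_nonneg (hw ω) (hev (χ' ω x y)))
      linarith
    have h2 : ∑ x, ∑ y, a x y * ∑ ω, wt ω * χ' ω x y ^ (m + 2) ≤
        ∑ x, ∑ y, ((1 + u) * (a x y * χ x y ^ (m + 2)) + P * u1 * (a x y * (χ x y ^ (m + 1) *
          (-Rop a D Δ x (φ x) y - Rop a D Δ y (φ y) x + e x y))) + u * C * E ^ (m + 2) * a x y) := by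
      refine sum_le_sum fun x _ => sum_le_sum fun y _ => ?_
      rcases ha.z1 x y with h | h
      · simp [h]
      · have := exp_taylor wt hw hw1 m hm (χ x y) u E hu hE (fun ω => χ' ω x y) (hχ1 x y h) (hχ2 x y h)
        rw [hχ3 x y h] at this
        rw [h]; linarith
    simp only [sum_add_distrib, ← mul_sum] at h2
    have h3 := mul_le_mul_of_nonneg_left p1 (mul_nonneg hP0 hu1)
    have h4 := mul_le_mul_of_nonneg_left hA (by positivity : 0 ≤ u * C * E ^ (m + 2))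
    rw [← hX] at h2
    have e1 : u * C * E ^ (m + 2) * (2 * Δ * Fintype.card V) = u * C * (2 * Δ * Z) := by rw [hZ]; ring
    have e2 : (4 + 2 * t) * Δ * Fintype.card V * E ^ (m + 2) = (4 + 2 * t) * Δ * Z := by rw [hZ]; ring
    rw [e2] at h3
    linarith
  have q2 : ∑ ω, wt ω * ∑ x, δ' ω x ^ (m + 2) ≤ (1 + u) * Y +
      P * u2 * (t * (X / Δ) + 4 * s * Y + 2 * t * Z) + u * C * Z := by
    have h2 : ∑ ω, wt ω * ∑ x, δ' ω x ^ (m + 2) ≤ ∑ x, ((1 + u) * δ x ^ (m + 2) +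
        P * u2 / Δ * (δ x ^ (m + 1) * (-∑ z, a x z * φ x z)) + u * C * E ^ (m + 2)) := by
      simp only [mul_sum]
      rw [sum_comm]
      refine sum_le_sum fun x _ => ?_
      have := exp_taylor wt hw hw1 m hm (δ x) u E hu hE (fun ω => δ' ω x) (hδ1 x) (hδ2 x)
      rw [hδ3 x] at this
      refine this.trans (le_of_eq ?_)
      ring
    simp only [sum_add_distrib, ← mul_sum, sum_const, card_univ, nsmul_eq_mul] at h2
    have h3 := mul_le_mul_of_nonneg_left p2 (by positivity : 0 ≤ P * u2 / Δ)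
    have e1 : P * u2 / Δ * (t * X + 4 * s * Δ * Y + 2 * t * Δ * Fintype.card V * E ^ (m + 2)) =
        P * u2 * (t * (X / Δ) + 4 * s * Y + 2 * t * Z) := by rw [hZ]; field_simp
    rw [e1] at h3
    rw [← hY] at h2
    have e2 : (Fintype.card V : ℝ) * (u * C * E ^ (m + 2)) = u * C * Z := by rw [hZ]; ring
    linarith
  have e0 : ∑ ω, wt ω * Psi (a' ω) Δ' κ (m + 2) (χ' ω) (δ' ω) =
      (∑ ω, wt ω * ∑ x, ∑ y, a' ω x y * χ' ω x y ^ (m + 2)) / Δ' +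
        κ * ∑ ω, wt ω * ∑ x, δ' ω x ^ (m + 2) := by
    rw [sum_div, mul_sum, ← sum_add_distrib]
    exact sum_congr rfl fun ω _ => by unfold Psi; ring
  rw [e0]
  have e3 : Psi a Δ κ (m + 2) χ δ = X / Δ + κ * Y := rfl
  have e4 : u * cP m s * Fintype.card V * E ^ (m + 2) = u * (2 * P * (6 + 2 * t) + 5 * C) * Z := by
    rw [hZ, cP]; ring
  rw [e3, e4]
  exact pot_arith hΔ hΔ' hP0 hX0 hY0 hZ0 hC0 ht0 hκ0 hκ1 hκt hs.le hs1 hu hu' hu1' hu2 hu2' hq q1 q2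

end Vale.Agent.P046
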